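import Vale.Agent.P133.R2.H307.Spec
import Mathlib.Topology.PartitionOfUnity

/-!
P133 (helper408): row T, selection over compact spaces with property C.
-/

set_option linter.all false

open Set Topology

namespace Vale.Agent.P133.R2.H408

universe v w

section

variable {X : Type v} [TopologicalSpace X] {V : Type w} [NormedAddCommGroup V] [NormedSpace ℝ V]

/-- the hypotheses on the seminorms -/
structure Hyp (K : Set X) (N : X → V → ℝ) (C : ℝ) : Prop where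
  hC : 0 ≤ C
  add : ∀ t y z, N t (y + z) ≤ N t y + N t z
  smul : ∀ t (c : ℝ) y, N t (c • y) = |c| * N t y
  le : ∀ t y, N t y ≤ C * ‖y‖
  closed : ∀ y (r : ℝ), IsClosed {t | t ∈ K ∧ N t y ≤ r}
  big : ∀ t ∈ K, ∀ S : Submodule ℝ V, FiniteDimensional ℝ S → ∃ y, ∀ s ∈ S, 0 < N t (y + s)

variable {K : Set X} {N : X → V → ℝ} {C : ℝ}

theorem Hyp.lip (h : Hyp K N C) (t : X) (y z : V) : N t z - C * ‖y - z‖ ≤ N t y := by
  have h1 := h.add t y (z - y)
  have h2 := h.le t (z - y)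
  rw [add_sub_cancel] at h1
  rw [norm_sub_rev] at h2
  linarith

/-- states of the recursion -/
structure St (V : Type w) [NormedAddCommGroup V] [NormedSpace ℝ V] where
  B : Set V
  ρ : ℝ
  S : Submodule ℝ V
  hB : IsCompact B
  hρ : 0 < ρ
  hS : FiniteDimensional ℝ S
  hBS : B ⊆ S

/-- the data of one step -/
def Good (K : Set X) (N : X → V → ℝ) (s : St V) (A : Set X) (L : Set (Set X × V)) (μ : ℝ) : Prop :=
  L.Finite ∧ 0 < μ ∧ (∀ p ∈ L, IsOpen p.1 ∧ ‖p.2‖ ≤ s.ρ ∧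
    ∀ t ∈ K, t ∈ p.1 → ∀ b ∈ s.B, μ ≤ N t (p.2 + b)) ∧ ∀ t ∈ A, ∃ p ∈ L, t ∈ p.1

theorem local_step (h : Hyp K N C) (hK : IsClosed K) (s : St V) (t : X) :
    ∃ U ∈ 𝓝 t, ∃ L μ, Good K N s U L μ := by
  by_cases ht : t ∈ K
  · obtain ⟨y0, hy0⟩ := h.big t ht s.S s.hS
    obtain ⟨y, hy, hyρ⟩ : ∃ y : V, (∀ b ∈ s.B, 0 < N t (y + b)) ∧ ‖y‖ ≤ s.ρ := by
      have hc : 0 < s.ρ / (1 + ‖y0‖) := div_pos s.hρ (by positivity)
      refine ⟨(s.ρ / (1 + ‖y0‖)) • y0, fun b hb => ?_, ?_⟩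
      · have e : (s.ρ / (1 + ‖y0‖)) • y0 + b =
            (s.ρ / (1 + ‖y0‖)) • (y0 + (s.ρ / (1 + ‖y0‖))⁻¹ • b) := by
          rw [smul_add, smul_inv_smul₀ hc.ne']
        rw [e, h.smul, abs_of_pos hc]
        exact mul_pos hc (hy0 _ (s.S.smul_mem _ (s.hBS hb)))
      · rw [norm_smul, Real.norm_of_nonneg hc.le, div_mul_eq_mul_div, div_le_iff₀ (by positivity)]
        nlinarith [norm_nonneg y0, s.hρ]
    have key : ∃ U : Set X, IsOpen U ∧ t ∈ U ∧ ∃ μ : ℝ, 0 < μ ∧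
        ∀ t' ∈ K, t' ∈ U → ∀ b ∈ s.B, μ ≤ N t' (y + b) := by
      refine s.hB.induction_on (p := fun B' => ∃ U : Set X, IsOpen U ∧ t ∈ U ∧ ∃ μ : ℝ, 0 < μ ∧
        ∀ t' ∈ K, t' ∈ U → ∀ b ∈ B', μ ≤ N t' (y + b)) ?_ ?_ ?_ ?_
      · exact ⟨univ, isOpen_univ, mem_univ _, 1, one_pos, fun _ _ _ _ hb => hb.elim⟩
      · rintro B1 B2 hB ⟨U, hU, htU, μ, hμ, hh⟩
        exact ⟨U, hU, htU, μ, hμ, fun t' ht' htU' b hb => hh t' ht' htU' b (hB hb)⟩
      · rintro B1 B2 ⟨U1, hU1, htU1, μ1, hμ1, hh1⟩ ⟨U2, hU2, htU2, μ2, hμ2, hh2⟩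
        refine ⟨U1 ∩ U2, hU1.inter hU2, ⟨htU1, htU2⟩, min μ1 μ2, lt_min hμ1 hμ2, ?_⟩
        rintro t' ht' ⟨h1, h2⟩ b (hb | hb)
        · exact (min_le_left _ _).trans (hh1 t' ht' h1 b hb)
        · exact (min_le_right _ _).trans (hh2 t' ht' h2 b hb)
      · intro b hb
        set r : ℝ := N t (y + b) / 3 with hr
        have hr0 : 0 < r := by have := hy b hb; positivity
        have hC1 : 0 < C + 1 := by have := h.hC; linarith
        refine ⟨Metric.ball b (r / (C + 1)),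
          mem_nhdsWithin_of_mem_nhds (Metric.ball_mem_nhds _ (by positivity)),
          {t' | t' ∈ K ∧ N t' (y + b) ≤ 2 * r}ᶜ, (h.closed _ _).isOpen_compl, ?_, r, hr0, ?_⟩
        · rintro ⟨_, h2⟩
          have : N t (y + b) = 3 * r := by rw [hr]; ring
          linarith
        · intro t' ht' hU b' hb'
          have h1 : 2 * r < N t' (y + b) := by
            by_contra hcon
            exact hU ⟨ht', not_lt.1 hcon⟩
          have h2 := h.lip t' (y + b') (y + b)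
          rw [add_sub_add_left_eq_sub] at h2
          rw [Metric.mem_ball, dist_eq_norm] at hb'
          have h3 : C * ‖b' - b‖ ≤ r := by
            have h4 : (C + 1) * ‖b' - b‖ ≤ r := by
              rw [lt_div_iff₀ hC1] at hb'
              linarith
            nlinarith [norm_nonneg (b' - b)]
          linarith
    obtain ⟨U, hU, htU, μ, hμ, hh⟩ := key
    refine ⟨U, hU.mem_nhds htU, {(U, y)}, μ, finite_singleton _, hμ, ?_, ?_⟩
    · rintro p hp
      rw [mem_singleton_iff] at hp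
      subst hp
      exact ⟨hU, hyρ, hh⟩
    · exact fun t' ht' => ⟨(U, y), mem_singleton _, ht'⟩
  · refine ⟨Kᶜ, hK.isOpen_compl.mem_nhds ht, {(Kᶜ, 0)}, 1, finite_singleton _, one_pos, ?_, ?_⟩
    · rintro p hp
      rw [mem_singleton_iff] at hp
      subst hp
      refine ⟨hK.isOpen_compl, ?_, fun t' ht' h' => (h' ht').elim⟩
      rw [norm_zero]
      exact s.hρ.le
    · exact fun t' ht' => ⟨(Kᶜ, 0), mem_singleton _, ht'⟩

theorem step [CompactSpace X] (h : Hyp K N C) (hK : IsClosed K) (s : St V) :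
    ∃ L μ, Good K N s univ L μ := by
  refine (isCompact_univ (X := X)).induction_on (p := fun A => ∃ L μ, Good K N s A L μ) ?_ ?_ ?_ ?_
  · exact ⟨∅, 1, finite_empty, one_pos, fun p hp => hp.elim, fun t ht => ht.elim⟩
  · rintro A B hAB ⟨L, μ, h1, h2, h3, h4⟩
    exact ⟨L, μ, h1, h2, h3, fun t ht => h4 t (hAB ht)⟩
  · rintro A B ⟨L, μ, h1, h2, h3, h4⟩ ⟨L', μ', h1', h2', h3', h4'⟩
    refine ⟨L ∪ L', min μ μ', h1.union h1', lt_min h2 h2', ?_, ?_⟩
    · rintro p (hp | hp)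
      · obtain ⟨a, b, c⟩ := h3 p hp
        exact ⟨a, b, fun t ht htp x hx => (min_le_left _ _).trans (c t ht htp x hx)⟩
      · obtain ⟨a, b, c⟩ := h3' p hp
        exact ⟨a, b, fun t ht htp x hx => (min_le_right _ _).trans (c t ht htp x hx)⟩
    · rintro t (ht | ht)
      · obtain ⟨p, hp, h⟩ := h4 t ht
        exact ⟨p, Or.inl hp, h⟩
      · obtain ⟨p, hp, h⟩ := h4' t ht
        exact ⟨p, Or.inr hp, h⟩
  · intro t _
    obtain ⟨U, hU, L, μ, hh⟩ := local_step h hK s t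
    exact ⟨U, mem_nhdsWithin_of_mem_nhds hU, L, μ, hh⟩

/-- the next state -/
noncomputable def next (C : ℝ) (hC : 0 ≤ C) (s : St V) (L : Set (Set X × V)) (μ : ℝ) (hL : L.Finite)
    (hμ : 0 < μ) : St V where
  B := s.B ∪ ⋃ p ∈ L, (fun bc : V × ℝ => bc.1 + bc.2 • p.2) '' (s.B ×ˢ Icc (0 : ℝ) 1)
  ρ := min (s.ρ / 2) (μ / (4 * (C + 1)))
  S := s.S ⊔ Submodule.span ℝ (Prod.snd '' L)
  hB := by
    refine s.hB.union (hL.isCompact_biUnion fun p _ => ?_)
    exact (s.hB.prod isCompact_Icc).image (by fun_prop)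
  hρ := by
    have := s.hρ
    exact lt_min (by positivity) (by positivity)
  hS := by
    haveI := s.hS
    haveI := FiniteDimensional.span_of_finite ℝ (hL.image Prod.snd)
    infer_instance
  hBS := by
    rintro x (hx | hx)
    · exact Submodule.mem_sup_left (s.hBS hx)
    · obtain ⟨p, hp, ⟨b, c⟩, ⟨hb, _⟩, rfl⟩ := mem_iUnion₂.1 hx
      exact Submodule.add_mem _ (Submodule.mem_sup_left (s.hBS hb))
        (Submodule.mem_sup_right (Submodule.smul_mem _ _ (Submodule.subset_span ⟨p, hp, rfl⟩)))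

/-- a stage wise estimate: at most one member of every stage contributes -/
theorem main_est {ι : Type*} [Fintype ι] (h : Hyp K N C) (s : ℕ → St V) (μ : ℕ → ℝ)
    (hμ : ∀ n, 0 < μ n)
    (hρ1 : ∀ n, (s (n + 1)).ρ ≤ (s n).ρ / 2)
    (hρ2 : ∀ n, (s (n + 1)).ρ ≤ μ n / (4 * (C + 1)))
    (h0 : (0 : V) ∈ (s 0).B) (hB1 : ∀ n, (s n).B ⊆ (s (n + 1)).B)
    (st : ι → ℕ) (y : ι → V) (f : ι → ℝ) (hf : ∀ i, 0 ≤ f i ∧ f i ≤ 1)
    (hy : ∀ i, ‖y i‖ ≤ (s (st i)).ρ)
    (hB2 : ∀ i, ∀ b ∈ (s (st i)).B, b + f i • y i ∈ (s (st i + 1)).B)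
    (huniq : ∀ i j, st i = st j → f i ≠ 0 → f j ≠ 0 → i = j)
    (t : X) (i0 : ι) (hi0 : f i0 = 1)
    (hN : ∀ b ∈ (s (st i0)).B, μ (st i0) ≤ N t (y i0 + b)) :
    0 < N t (∑ i, f i • y i) := by
  classical
  set z : ℕ → V := fun j => ∑ i, if st i = j then f i • y i else 0 with hz
  set T : ℕ → V := fun j => ∑ i, if st i < j then f i • y i else 0 with hT
  have hTs : ∀ j, T (j + 1) = T j + z j := by
    intro j
    simp only [hT, hz]
    rw [← Finset.sum_add_distrib]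
    refine Finset.sum_congr rfl fun i _ => ?_
    rcases lt_trichotomy (st i) j with h1 | h1 | h1
    · rw [if_pos (by omega), if_pos h1, if_neg (by omega), add_zero]
    · rw [if_pos (by omega), if_neg (by omega), if_pos h1, zero_add]
    · rw [if_neg (by omega), if_neg (by omega), if_neg (by omega), add_zero]
  have hz1 : ∀ i, f i ≠ 0 → z (st i) = f i • y i := by
    intro i hi
    simp only [hz]
    rw [Finset.sum_eq_single i]
    · rw [if_pos rfl]
    · intro j _ hj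
      by_cases h1 : st j = st i
      · rw [if_pos h1]
        by_cases h2 : f j = 0
        · rw [h2, zero_smul]
        · exact absurd (huniq j i h1 h2 hi) hj
      · rw [if_neg h1]
    · intro h1
      exact absurd (Finset.mem_univ i) h1
  have hz2 : ∀ j, z j = 0 ∨ ∃ i, st i = j ∧ z j = f i • y i := by
    intro j
    by_cases hex : ∃ i, st i = j ∧ f i ≠ 0
    · obtain ⟨i, hi, hfi⟩ := hex
      right
      refine ⟨i, hi, ?_⟩
      rw [← hi]
      exact hz1 i hfi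
    · left
      simp only [hz]
      refine Finset.sum_eq_zero fun i _ => ?_
      by_cases h1 : st i = j
      · have h2 : f i = 0 := by
          by_contra h2
          exact hex ⟨i, h1, h2⟩
        rw [if_pos h1, h2, zero_smul]
      · rw [if_neg h1]
  have hTB : ∀ j, T j ∈ (s j).B := by
    intro j
    induction j with
    | zero =>
      have : T 0 = 0 := by
        simp only [hT]
        exact Finset.sum_eq_zero fun i _ => by rw [if_neg (by omega)]
      rw [this]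
      exact h0
    | succ j ih =>
      rw [hTs]
      rcases hz2 j with h1 | ⟨i, hi, h1⟩
      · rw [h1, add_zero]
        exact hB1 j ih
      · rw [h1]
        subst hi
        exact hB2 i _ ih
  have hzn : ∀ j, ‖z j‖ ≤ (s j).ρ := by
    intro j
    rcases hz2 j with h1 | ⟨i, hi, h1⟩
    · rw [h1, norm_zero]
      exact (s j).hρ.le
    · rw [h1, norm_smul, Real.norm_of_nonneg (hf i).1, ← hi]
      calc f i * ‖y i‖ ≤ 1 * ‖y i‖ := mul_le_mul_of_nonneg_right (hf i).2 (norm_nonneg _)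
        _ = ‖y i‖ := one_mul _
        _ ≤ _ := hy i
  set j0 := st i0 with hj0
  have h1 : T (j0 + 1) = y i0 + T j0 := by
    rw [hTs, hz1 i0 (by rw [hi0]; exact one_ne_zero), hi0, one_smul, add_comm]
  have h2 : μ j0 ≤ N t (T (j0 + 1)) := by
    rw [h1]
    exact hN _ (hTB j0)
  have h3 : ∀ m, ‖T (j0 + 1 + m) - T (j0 + 1)‖ ≤ 2 * (s (j0 + 1)).ρ - 2 * (s (j0 + 1 + m)).ρ := by
    intro m
    induction m with
    | zero => simp
    | succ m ih =>
      have e : T (j0 + 1 + (m + 1)) - T (j0 + 1) =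
          (T (j0 + 1 + m) - T (j0 + 1)) + z (j0 + 1 + m) := by
        rw [← add_assoc, hTs]
        abel
      rw [e]
      have h4 := norm_add_le (T (j0 + 1 + m) - T (j0 + 1)) (z (j0 + 1 + m))
      have h5 := hzn (j0 + 1 + m)
      have h6 := hρ1 (j0 + 1 + m)
      rw [← add_assoc]
      linarith
  set M := Finset.univ.sup st with hM
  have h4 : T (j0 + 1 + M) = ∑ i, f i • y i := by
    simp only [hT]
    refine Finset.sum_congr rfl fun i _ => ?_
    have h5 : st i ≤ M := Finset.le_sup (f := st) (Finset.mem_univ i)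
    rw [if_pos (by omega)]
  have h5 := h3 M
  rw [h4] at h5
  have h6 := h.lip t (∑ i, f i • y i) (T (j0 + 1))
  have h7 := (s (j0 + 1 + M)).hρ
  have h8 : ‖∑ i, f i • y i - T (j0 + 1)‖ ≤ 2 * (μ j0 / (4 * (C + 1))) := by
    have := hρ2 j0
    linarith
  have hC := h.hC
  have h9 : C * ‖∑ i, f i • y i - T (j0 + 1)‖ ≤ μ j0 / 2 := by
    have hr : 0 ≤ μ j0 / (4 * (C + 1)) := div_nonneg (hμ j0).le (by linarith)
    have hr2 : μ j0 / (4 * (C + 1)) * (4 * (C + 1)) = μ j0 :=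
      div_mul_cancel₀ _ (by positivity)
    calc C * ‖∑ i, f i • y i - T (j0 + 1)‖ ≤ C * (2 * (μ j0 / (4 * (C + 1)))) :=
          mul_le_mul_of_nonneg_left h8 hC
      _ ≤ μ j0 / 2 := by nlinarith
  have := hμ j0
  linarith

open Vale.Agent.P133.R2.H307

theorem specTop_main [CompactSpace X] [T2Space X] (hX : HasPropertyC X) (hK : IsClosed K)
    (h : Hyp K N C) :
    ∃ (m : ℕ) (φ : Fin m → C(X, ℝ)) (y : Fin m → V),
      (∀ i t, 0 ≤ φ i t ∧ φ i t ≤ 1) ∧ ∀ t ∈ K, 0 < N t (∑ i, φ i t • y i) := by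
  classical
  choose L μ hG using fun s : St V => step h hK s
  let s0 : St V := ⟨{0}, 1, ⊥, isCompact_singleton, one_pos, inferInstance, by simp⟩
  let s : ℕ → St V := fun n =>
    Nat.rec s0 (fun _ st => next C h.hC st (L st) (μ st) (hG st).1 (hG st).2.1) n
  have hρ1 : ∀ n, (s (n + 1)).ρ ≤ (s n).ρ / 2 := fun n => min_le_left _ _
  have hρ2 : ∀ n, (s (n + 1)).ρ ≤ μ (s n) / (4 * (C + 1)) := fun n => min_le_right _ _
  have hB1 : ∀ n, (s n).B ⊆ (s (n + 1)).B := fun n => subset_union_left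
  have hB2 : ∀ n, ∀ p ∈ L (s n), ∀ b ∈ (s n).B, ∀ c ∈ Icc (0 : ℝ) 1,
      b + c • p.2 ∈ (s (n + 1)).B := fun n p hp b hb c hc =>
    Or.inr (mem_iUnion₂.2 ⟨p, hp, ⟨(b, c), ⟨hb, hc⟩, rfl⟩⟩)
  obtain ⟨W, hW, hWU⟩ := hX (fun n => Prod.fst '' L (s n)) (fun n => ⟨by
      rintro u ⟨p, hp, rfl⟩
      exact ((hG (s n)).2.2.1 p hp).1, by
      rw [eq_univ_iff_forall]
      intro t
      obtain ⟨p, hp, ht⟩ := (hG (s n)).2.2.2 t (mem_univ t)
      exact ⟨p.1, ⟨p, hp, rfl⟩, ht⟩⟩)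
  obtain ⟨F, hF⟩ := (isCompact_univ (X := X)).elim_finite_subcover
    (fun p : {p : ℕ × Set X // p.2 ∈ W p.1} => p.1.2)
    (fun p => ((hW p.1.1).1 _ p.2).1) (by
      intro t _
      have : t ∈ ⋃ i, ⋃₀ W i := by rw [hWU]; exact mem_univ t
      obtain ⟨i, hi⟩ := mem_iUnion.1 this
      obtain ⟨v, hv, htv⟩ := hi
      exact mem_iUnion.2 ⟨⟨(i, v), hv⟩, htv⟩)
  obtain ⟨f, hf⟩ := BumpCovering.exists_isSubordinate (X := X) isClosed_univ
    (fun p : F => p.1.1.2) (fun p => ((hW p.1.1.1).1 _ p.1.2).1) (by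
      intro t ht
      obtain ⟨p, hp⟩ := mem_iUnion.1 (hF ht)
      obtain ⟨hpF, htp⟩ := mem_iUnion.1 hp
      exact mem_iUnion.2 ⟨⟨p, hpF⟩, htp⟩)
  have hfs : ∀ (p : F) t, f p t ≠ 0 → t ∈ p.1.1.2 := fun p t ht =>
    hf p (subset_tsupport _ (Function.mem_support.2 ht))
  have hq : ∀ p : F, ∃ q ∈ L (s p.1.1.1), p.1.1.2 ⊆ q.1 := by
    intro p
    obtain ⟨_, u, ⟨q, hq, rfl⟩, hvu⟩ := (hW p.1.1.1).1 p.1.1.2 p.1.2
    exact ⟨q, hq, hvu⟩
  choose q hqL hqs using hq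
  let e : Fin (Fintype.card F) ≃ F := (Fintype.equivFin F).symm
  refine ⟨Fintype.card F, fun i => f (e i), fun i => (q (e i)).2,
    fun i t => ⟨f.nonneg _ _, f.le_one _ _⟩, fun t ht => ?_⟩
  have hsum : ∑ i, (f (e i)) t • (q (e i)).2 = ∑ p : F, f p t • (q p).2 :=
    e.sum_comp (fun p : F => f p t • (q p).2)
  rw [hsum]
  obtain ⟨p0, hp0⟩ := f.eventuallyEq_one' t (mem_univ t)
  have hp0' : f p0 t = 1 := hp0.eq_of_nhds
  refine main_est (ι := F) h s (fun n => μ (s n)) (fun n => (hG (s n)).2.1) hρ1 hρ2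
    (mem_singleton _) hB1 (fun p => p.1.1.1) (fun p => (q p).2) (fun p => f p t)
    (fun p => ⟨f.nonneg _ _, f.le_one _ _⟩)
    (fun p => ((hG _).2.2.1 _ (hqL p)).2.1)
    (fun p b hb => hB2 _ _ (hqL p) b hb _ ⟨f.nonneg _ _, f.le_one _ _⟩) ?_ t p0 hp0' ?_
  · intro p p' hst hp hp'
    have h1 := hfs p t hp
    have h2 := hfs p' t hp'
    by_contra hne
    have h3 : p.1.1.2 ≠ p'.1.1.2 := fun h4 => hne (Subtype.ext (Subtype.ext (Prod.ext hst h4)))
    have h4 : p.1.1.2 ∈ W p'.1.1.1 := by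
      have := p.1.2
      rwa [hst] at this
    have h5 := (hW p'.1.1.1).2 h4 p'.1.2 h3
    exact Set.disjoint_left.1 h5 h1 h2
  · intro b hb
    refine ((hG _).2.2.1 _ (hqL p0)).2.2 t ht (hqs p0 (hfs p0 t ?_)) b hb
    rw [hp0']
    exact one_ne_zero

end

open Vale.Agent.P133.R2.H307

theorem specTop : SpecTop.{v, w} := by
  intro X _ _ _ hX K hK V _ _ N C hC hadd hsmul hle hcl hbig
  exact specTop_main hX hK ⟨hC, hadd, hsmul, hle, hcl, hbig⟩

end Vale.Agent.P133.R2.H408
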